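import Vale.Agent.P091.T.H454.NBeta
import Vale.Agent.P091.T.H103.Inst

/-! # P091, row E1-E for the `Dat` of `inst` (helper103): the hypothesis `N` -/

set_option autoImplicit false

open Finset
open Vale.Agent.P091.Spec (av avC nd)
open Vale.Agent.P091.H413
open Vale.Agent.P091.T.H103 (Dat LC DC)
open Vale.Agent.P091.T.H233 (pdZ)

noncomputable section

namespace Vale.Agent.P091.T.H454

theorem LC_eq_Lc (m : ℕ) (f : Node → ℂ) (v : Node) : LC m f v = H587.Lc m f v := by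
  induction m generalizing v with
  | zero => rfl
  | succ m ih => simp only [LC, H587.Lc, ih]

theorem ia_eq_pos (a0 : ℕ) (v : Node) : T.ia a0 v = pos a0 v := rfl

/-- average of a function of the integer leaf, real form -/
theorem Lf_ia {n j0 : ℕ} (a0 : ℕ) (hn : j0 ≤ n) (F : ℕ → ℝ) (m : ℕ) {v : Node}
    (hv : v.length + m = n - j0) :
    Lf m (fun x => F (T.ia a0 x)) v = av n (j0 + v.length) (T.ia a0 v) F :=
  Lf_pos a0 hn F m hv

/-- average of a function of the integer leaf, complex form -/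
theorem LC_ia {n j0 : ℕ} (a0 : ℕ) (hn : j0 ≤ n) (F : ℕ → ℂ) (m : ℕ) {v : Node}
    (hv : v.length + m = n - j0) :
    LC m (fun x => F (T.ia a0 x)) v = avC n (j0 + v.length) (T.ia a0 v) F := by
  rw [LC_eq_Lc]
  exact Lc_pos a0 hn F m hv

variable {C1 D : ℝ} {n b : ℕ} {ι : Type} [Fintype ι]

/-- a class which is in the process has the floor on the whole way -/
theorem pres_of_mem (d : ZData C1 D n b ι) {A : ℝ} {J : List (Un n b)} {j0 a0 : ℕ} {κ : ι}
    {v : Node} {t : ℕ} (hv : v.length + j0 ≤ n) (h : (pdZ d A J j0 a0).mem t κ v) :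
    Pres d κ (j0 + v.length) (T.ia a0 v) := by
  have h1 := H233.mem_pres_of_mem d A J j0 a0 h
  obtain ⟨h2, h3⟩ := (H233.PD.mem_pres _).mp h1
  obtain ⟨i, hi, hA⟩ := H233.not_gone d A J j0 a0 hv h3
  have h4 : d.js κ + 3 ≤ j0 + v.length := h2
  exact pres_of_ne (by omega) (by omega) hi hA

variable {I Q : Type}

theorem dat_ma {d : ZData C1 D n b ι} {j0 a0 : ℕ} (hjn : j0 ≤ n) {dd : Dat ι I Q}
    (hn : dd.n = n - j0) (ha : ∀ κ x, dd.a κ x = d.a κ (T.ia a0 x)) (κ : ι) {v : Node}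
    (hv : v.length ≤ n - j0) : dd.ma κ v = H316.cw d j0 a0 κ v := by
  unfold Dat.ma Dat.av H316.cw
  have e : dd.a κ = fun x => d.a κ (T.ia a0 x) := funext fun x => ha κ x
  rw [hn, e]
  exact Lf_ia a0 hjn _ _ (by omega)

theorem dat_dM {d : ZData C1 D n b ι} {j0 a0 : ℕ} (hjn : j0 ≤ n) {Y : Finset ℕ}
    {W : ℕ → ℕ → Finset ℕ} {dd : Dat ι I Q}
    (hn : dd.n = n - j0)
    (hf : ∀ (v : Node) y, v.length < n - j0 →
      dd.f v y = cut d.p (W (j0 + v.length) (T.ia a0 v)) (T.ia a0 y) /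
        (2 * av n j0 a0 (cut d.p Y)))
    (he : ∀ κ y, dd.e κ y = ch n b (-(d.r κ * (T.ia a0 y : ℕ)))) (κ : ι) {v : Node}
    (hv : v.length < n - j0) : dd.dM κ v = H316.dMZ d j0 a0 Y W κ v := by
  unfold Dat.dM DC H316.dMZ dZ
  set G : ℕ → ℂ := fun i => (1 / (H316.bt d j0 a0 Y : ℂ)) *
    ((cut d.p (W (j0 + v.length) (T.ia a0 v)) i : ℂ) * ch n b (-(d.r κ * (i : ℕ)))) with hG
  have e : (fun y => (dd.f v y : ℂ) * dd.e κ y) = fun y => G (T.ia a0 y) := by
    funext y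
    rw [hf v y hv, he, hG]
    unfold H316.bt
    push_cast
    ring
  have e1 := LC_ia a0 hjn G (n - j0 - v.length - 1) (v := true :: v)
    (by simp only [List.length_cons]; omega)
  have e2 := LC_ia a0 hjn G (n - j0 - v.length - 1) (v := false :: v)
    (by simp only [List.length_cons]; omega)
  rw [e, hn, e1, e2]
  unfold BZ
  have hc : ∀ (j a : ℕ) (c : ℂ) (F : ℕ → ℂ), avC n j a (fun i => c * F i) = c * avC n j a F := by
    intro j a c F
    unfold avC
    rw [← mul_sum, mul_div_assoc]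
  rw [hc, hc, T.ia_true, T.ia_false]
  simp only [List.length_cons, ← add_assoc]
  ring

/-- **The hypothesis `N` of `inst`** for the literal data. -/
theorem nbad_dat (h8 : P_T8) (s0 C1 : ℝ) (hs0 : 0 < s0) (hC1 : 0 ≤ C1) : ∃ D0 : ℝ,
    ∀ (D : ℝ) (n : ℕ) (ι : Type) [Fintype ι] (d : ZData C1 D n (bb D) ι)
      (j0 a0 : ℕ) (Y : Finset ℕ) (W : ℕ → ℕ → Finset ℕ) (I Q : Type) [Fintype I] [Fintype Q]
      (dd : Dat ι I Q) (tot : ℝ),
      D0 ≤ D → Fam d s0 j0 a0 Y W → dd.n = n - j0 →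
      (∀ κ x, dd.a κ x = d.a κ (T.ia a0 x)) →
      (∀ (v : Node) y, v.length < n - j0 →
        dd.f v y = cut d.p (W (j0 + v.length) (T.ia a0 v)) (T.ia a0 y) /
          (2 * av n j0 a0 (cut d.p Y))) →
      (∀ κ y, dd.e κ y = ch n (bb D) (-(d.r κ * (T.ia a0 y : ℕ)))) →
      (∀ κ (v : Node), v.length < n - j0 → dd.st κ v ≠ none →
        Pres d κ (j0 + v.length) (T.ia a0 v)) →
      tot ≤ Real.exp (-(D / (ll D : ℝ) ^ 2)) →
      ∀ β : ι → Node → ℝ, (∀ κ v, 0 ≤ β κ v) →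
        (∀ κ v, v.length < dd.n → β κ v ≤ dd.ma κ v) →
        (∀ κ v, β κ v ≠ 0 → dd.st κ v ≠ none) →
        (∀ v, v.length < dd.n → ∑ κ, β κ v ≤ tot) →
        S dd.n (fun v => ∑ κ, β κ v * ‖dd.dM κ v‖ ^ 2) [] ≤ D / (4 * (ll D : ℝ) ^ 20) := by
  obtain ⟨D0, h⟩ := t8_beta h8 s0 C1 hs0 hC1
  refine ⟨D0, ?_⟩
  intro D n ι _ d j0 a0 Y W I Q _ _ dd tot hD hF hn ha hf he hp htot β hβ0 hβ1 hβs hβt
  have hjn := hF.j0_le
  have key := h D n ι d j0 a0 Y W β hD hF (fun k v _ => hβ0 k v)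
    (fun k v hv => by
      rw [← dat_ma hjn hn ha k hv.le]
      exact hβ1 k v (by omega))
    (fun k v hv hne => hp k v hv (hβs k v hne))
    (fun v hv _ => (hβt v (by omega)).trans htot)
  refine le_trans (le_of_eq ?_) key
  rw [hn]
  refine S_congr _ [] fun v hv => ?_
  simp only [List.length_nil, add_zero] at hv
  refine sum_congr rfl fun k _ => ?_
  rw [dat_dM hjn hn hf he k hv]

end Vale.Agent.P091.T.H454
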