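import Vale.Agent.P091.T.H454.Fam2
import Vale.Agent.P091.T.H862.YS

/-! # FAMSYS, literal form (both halves) -/

set_option autoImplicit false

open Finset
open Vale.Agent.P091.Spec (av avC nd)
open Vale.Agent.P091.H413
open Vale.Agent.P091.T.H937 (YSide)
open Vale.Agent.P091.T8.H655 (Plain)

noncomputable section

namespace Vale.Agent.P091.T.H454

/-- **FAMSYS** -/
def FAMSYS : Prop := ∀ s0 C1 : ℝ, 0 < s0 → 0 ≤ C1 →
  ∀ (D : ℝ) (n b : ℕ) (ι : Type) [Fintype ι] (d : ZData C1 D n b ι)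
    (j0 a0 : ℕ) (Y : Finset ℕ) (W : ℕ → ℕ → Finset ℕ) (w : ι → ℕ → ℕ → ℝ) (ε : ℝ),
    1 ≤ D → Fam d s0 j0 a0 Y W → (∀ k j a, 0 ≤ w k j a) → (∀ k j a, w k j a ≤ 1) →
    (∀ k j a, w k j a ≠ 0 → d.js k ≤ j ∧ ∀ j', d.js k ≤ j' → j' ≤ j →
      Real.exp (-(C1 * D)) ≤ av n j' (a / 2 ^ (j - j')) (d.a k)) →
    (∀ j a, j0 ≤ j → j < n → a / 2 ^ (j - j0) = a0 → (W j a).Nonempty →
      ∑ k, w k j a * av n j a (d.a k) ≤ ε) → 0 ≤ ε →
    ∃ (s : ESys ι Unit) (Ys : YSide (n - j0) (2 * D)) (β : ι → Node → ℝ) (T : Node → Prop),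
      s.Ok (n - j0) ∧ Plain s (n - j0) ∧
      (∀ (k : ℕ) (z : Node), k + z.length ≤ n - j0 → S k s.e1 z ≤ 2 * (2 * (C1 * D) + 1)) ∧
      (∀ (k : ℕ) (z : Node), k + z.length ≤ n - j0 → S k s.lα z ≤ 1) ∧
      (∀ c v, T (c :: v) → T v) ∧ (∀ v, T v → Ys.G v ≤ 2) ∧
      S (n - j0 + 1) Ys.loss [] ≤ 1 + 10 * Real.log (ll D) ∧
      (∀ k (v : Node), v.length < n - j0 → ‖s.B k () v‖ = ‖Ys.B (-(d.r k)) v‖ / 2 ∧
        ‖s.dB k () v‖ = ‖Ys.dB (-(d.r k)) v‖ / 2) ∧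
      (∀ k (v : Node), v.length < n - j0 → ¬ T v → s.B k () v = 0 ∧ s.dB k () v = 0) ∧
      (∀ k v, 0 ≤ β k v) ∧
      (∀ k (v : Node), v.length < n - j0 → β k v ≤ s.α k v) ∧
      (∀ v : Node, v.length < n - j0 → ∑ k, β k v ≤ ε) ∧
      ∑ j ∈ Ico j0 n, ∑ a ∈ Ico (a0 * 2 ^ (j - j0)) ((a0 + 1) * 2 ^ (j - j0)),
        (∑ k, w k j a * av n j a (d.a k) * ‖dZ n b (cut d.p (W j a)) (d.r k) j a‖ ^ 2)
          / 2 ^ (j - j0)
        ≤ 4 * av n j0 a0 (cut d.p Y) ^ 2 *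
          S (n - j0) (fun v => ∑ k, β k v * ‖s.dB k () v‖ ^ 2) []

theorem famsys : FAMSYS := by
  intro s0 C1 _ hC1 D n b ι _ d j0 a0 Y W w ε hD hF hw0 hw1 hfl hm hε
  have hC : 0 ≤ C1 * D := mul_nonneg hC1 (by linarith)
  have hβ := (base0 hF).bt_pos
  have hB0 : H862.B0 d j0 a0 Y = bt d j0 a0 Y / 2 := by
    unfold H862.B0 bt; ring
  refine ⟨FS (base0 hF), H862.ysF hF, bet d j0 a0 W w, TT n j0 a0 W, FS_ok _, FS_plain _,
    fun k z hk => FS_energy_z hF hC k z hk, fun k z hk => FS_removed_z hF k z hk,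
    fun c v h => TT_up hF c v h, fun v h => H862.G_le_two hF h, H862.S_loss_le hF,
    fun k v hv => ⟨?_, ?_⟩, fun k v hv h => FS_dead hF k hv h, bet_nonneg w hw0,
    fun k v hv => bet_le hF w hw1 hfl k hv.le, fun v hv => sum_bet_le hF w hε hm hv,
    (lhs_le hF w).le⟩
  · have h1 : (FS (base0 hF)).B k () v = BZ n b (cut d.p (W (j0 + v.length) (pos a0 v))) (d.r k)
        (j0 + v.length) (pos a0 v) / ((bt d j0 a0 Y : ℝ) : ℂ) := sys_B (base0 hF) _ k hv.le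
    have h2 := H862.norm_BZ hF (d.r k) (v := v) hv.le
    rw [h1, norm_div, Complex.norm_real, Real.norm_of_nonneg hβ.le]
    change ‖BZ n b (cut d.p (W (j0 + v.length) (pos a0 v))) (d.r k) (j0 + v.length)
      (pos a0 v)‖ = _ at h2
    rw [h2, hB0]
    field_simp
  · have h1 : (FS (base0 hF)).dB k () v = dZ n b (cut d.p (W (j0 + v.length) (pos a0 v))) (d.r k)
        (j0 + v.length) (pos a0 v) / ((bt d j0 a0 Y : ℝ) : ℂ) := sys_dB (base0 hF) _ k hv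
    have h2 := H862.norm_dZ hF (d.r k) (v := v) hv
    rw [h1, norm_div, Complex.norm_real, Real.norm_of_nonneg hβ.le]
    change ‖dZ n b (cut d.p (W (j0 + v.length) (pos a0 v))) (d.r k) (j0 + v.length)
      (pos a0 v)‖ = _ at h2
    rw [h2, hB0]
    field_simp

end Vale.Agent.P091.T.H454
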