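import Vale.Agent.P091.T.H454.FamSys
import Vale.Agent.P091.T.Rel
import Vale.Agent.P091.T.H34.Tree

/-! # FAMSYS, second part: subtrees, weights, the sum of `P_T8` on the list tree -/

set_option autoImplicit false

open Finset
open Vale.Agent.P091.Spec (av avC nd)
open Vale.Agent.P091.H413 Vale.Agent.P091.T.H587
open Vale.Agent.P091.T.H350 (ix ix_true ix_false ix_nil S_split)

noncomputable section

namespace Vale.Agent.P091.T.H454

theorem pos_eq_ia (a1 : ℕ) (v : Node) : pos a1 v = ia a1 v := rfl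

theorem ix_app (v z : Node) : ix (v ++ z) = ix z * 2 ^ v.length + ix v := by
  induction v with
  | nil => simp
  | cons c v ih =>
    cases c
    · rw [List.cons_append, ix_false, ix_false, ih, List.length_cons, pow_succ]; ring
    · rw [List.cons_append, ix_true, ix_true, ih, List.length_cons, pow_succ]; ring

theorem pos_pos (a0 : ℕ) (v z : Node) : pos (pos a0 z) v = pos a0 (v ++ z) := by
  unfold pos
  rw [ix_app, List.length_append, pow_add]
  ring

theorem S_congr (m : ℕ) {f g : Node → ℝ} (v : Node)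
    (h : ∀ w : Node, w.length < m + v.length → f w = g w) : S m f v = S m g v :=
  le_antisymm (S_mono m v fun w hw => (h w hw).le) (S_mono m v fun w hw => (h w hw).ge)

theorem S_le_S {k m : ℕ} (hkm : k ≤ m) {f : Node → ℝ} (v : Node)
    (h : ∀ w : Node, w.length < m + v.length → 0 ≤ f w) : S k f v ≤ S m f v := by
  obtain ⟨r, rfl⟩ := Nat.exists_eq_add_of_le hkm
  rw [S_split]
  have h1 : 0 ≤ Lf k (fun w => S r f w) v := by
    refine Vale.Agent.P091.T.H587.Lf_nonneg k v fun x hx => ?_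
    refine S_nonneg r x fun w hw => h w ?_
    omega
  linarith

section fam

variable {C1 D : ℝ} {n b : ℕ} {ι : Type} [Fintype ι] {d : ZData C1 D n b ι}
  {s0 : ℝ} {j0 a0 : ℕ} {Y : Finset ℕ} {W : ℕ → ℕ → Finset ℕ}

/-- the root base -/
theorem base0 (hF : Fam d s0 j0 a0 Y W) : Base d s0 j0 a0 Y W j0 a0 :=
  ⟨hF, le_rfl, hF.j0_le, by simp⟩

/-- the base of a subtree -/
theorem baseZ (hF : Fam d s0 j0 a0 Y W) {z : Node} (hz : z.length ≤ n - j0) :
    Base d s0 j0 a0 Y W (j0 + z.length) (pos a0 z) := by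
  have h0 := hF.j0_le
  refine ⟨hF, by omega, by omega, ?_⟩
  have e : j0 + z.length - j0 = z.length := by omega
  rw [e, pos_div]

theorem FS_shift_α (hF : Fam d s0 j0 a0 Y W) {z v : Node} (hz : z.length ≤ n - j0)
    (hv : v.length + z.length ≤ n - j0) (k : ι) :
    (FS (baseZ hF hz)).α k v = (FS (base0 hF)).α k (v ++ z) := by
  unfold FS
  rw [sys_α (baseZ hF hz) _ k (by omega), sys_α (base0 hF) _ k (by
    rw [List.length_append]; omega), pos_pos]
  have e : j0 + z.length + v.length = j0 + (v ++ z).length := by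
    rw [List.length_append]; omega
  rw [e]

theorem FS_shift_α' (hF : Fam d s0 j0 a0 Y W) {z v : Node} (c : Bool) (hz : z.length ≤ n - j0)
    (hv : v.length + z.length < n - j0) (k : ι) :
    (FS (baseZ hF hz)).α' k (c :: v) = (FS (base0 hF)).α' k (c :: (v ++ z)) := by
  unfold FS
  rw [sys_α' (baseZ hF hz) _ k c (by omega), sys_α' (base0 hF) _ k c (by
    rw [List.length_append]; omega), pos_pos, pos_pos]
  have e : j0 + z.length + v.length = j0 + (v ++ z).length := by
    rw [List.length_append]; omega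
  have e2 : j0 + z.length + (v.length + 1) = j0 + ((v ++ z).length + 1) := by
    rw [List.length_append]; omega
  rw [e, e2]
  rfl

/-- x-energy of the subtrees -/
theorem FS_energy_z (hF : Fam d s0 j0 a0 Y W) (h : 0 ≤ C1 * D) (k : ℕ) (z : Node)
    (hk : k + z.length ≤ n - j0) :
    S k (FS (base0 hF)).e1 z ≤ 2 * (2 * (C1 * D) + 1) := by
  have hz : z.length ≤ n - j0 := by omega
  have hB := baseZ hF hz
  have e1 : S k (FS (base0 hF)).e1 z = S k (FS hB).e1 [] := by
    have h1 := Vale.Agent.P091.T.H34.S_append k (FS (base0 hF)).e1 [] z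
    rw [List.nil_append] at h1
    rw [← h1]
    refine S_congr k [] fun w hw => ?_
    simp only [List.length_nil, add_zero] at hw
    unfold ESys.e1
    refine sum_congr rfl fun κ _ => ?_
    unfold ESys.dα
    rw [FS_shift_α hF hz (by omega) κ, FS_shift_α' hF true hz (by omega) κ,
      FS_shift_α' hF false hz (by omega) κ]
  rw [e1]
  refine le_trans (S_le_S (m := n - (j0 + z.length)) (by omega) [] fun w hw => ?_)
    (FS_energy hB h)
  exact ESys.e1_nonneg (FS_ok hB) (by simpa using hw)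

/-- removed mass of the subtrees -/
theorem FS_removed_z (hF : Fam d s0 j0 a0 Y W) (k : ℕ) (z : Node) (hk : k + z.length ≤ n - j0) :
    S k (FS (base0 hF)).lα z ≤ 1 := by
  set dd := ld (base0 hF) (bt_nonneg d j0 a0 Y) with hdd
  refine le_trans (S_le_S (m := n - j0 - z.length) (by omega) z fun w _ =>
    ESys.lα_nonneg _ _) ?_
  have h1 : S (n - j0 - z.length) (FS (base0 hF)).lα z ≤
      S (n - j0 - z.length) (fun w => Lf (n - j0 - w.length)
        ((fun j x => ∑ κ, max (dd.a κ (j - 1) x - dd.a κ j x) 0) w.length) w) z := by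
    refine S_mono _ z fun w _ => ?_
    change ∑ κ, max (Lf (n - j0 - w.length) (dd.a κ (w.length - 1)) w
      - Lf (n - j0 - w.length) (dd.a κ w.length) w) 0 ≤ _
    rw [Vale.Agent.P091.T.H587.Lf_sum]
    refine sum_le_sum fun κ _ => ?_
    rw [← Vale.Agent.P091.T.H587.Lf_sub]
    exact max_Lf_le _ _ _
  refine h1.trans ?_
  rw [S_swap (n - j0) (fun j x => ∑ κ, max (dd.a κ (j - 1) x - dd.a κ j x) 0) _ z (by omega)]
  refine Lf_le_of _ _ fun x hx => ?_
  have hx' : x.length = n - j0 := by omega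
  refine le_trans (sum_le_sum_of_subset_of_nonneg (t := range (n - j0)) ?_ ?_) ?_
  · intro j hj
    rw [mem_Ico] at hj
    exact mem_range.2 hj.2
  · intro j _ _
    exact sum_nonneg fun κ _ => le_max_right _ _
  · rw [sum_comm]
    refine le_trans (sum_le_sum fun κ _ => ?_) (d.a_sum (pos a0 x))
    refine (tele_le (fun j => aw (base0 hF) κ j x) (d.js κ - j0)
      (fun j => aw_nonneg (base0 hF) κ j x)
      (fun j hj => dd.a_act κ j x hj)
      (fun j hj => aw_anti (base0 hF) κ j x hx' hj) (n - j0)).trans ?_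
    change aw (base0 hF) κ (d.js κ - j0) x ≤ _
    unfold aw
    split_ifs
    · exact le_rfl
    · exact d.a_nonneg _ _

/-! ## exits, weights, the sum -/

/-- the tree of the nodes where the family is alive -/
def TT (n j0 a0 : ℕ) (W : ℕ → ℕ → Finset ℕ) (v : Node) : Prop :=
  v.length ≤ n - j0 ∧ (W (j0 + v.length) (pos a0 v)).Nonempty

theorem TT_up (hF : Fam d s0 j0 a0 Y W) (c : Bool) (v : Node) (h : TT n j0 a0 W (c :: v)) :
    TT n j0 a0 W v := by
  obtain ⟨h1, h2⟩ := h
  rw [List.length_cons] at h1 h2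
  exact ⟨by omega, h2.mono ((base0 hF).W_anti c (by omega))⟩

theorem cut_empty (p : ℕ → ℝ) : cut p ∅ = fun _ => 0 := by
  funext i
  simp [cut]

theorem BZ_zero (r : ZMod (2 ^ (n + b))) (j a : ℕ) : BZ n b (fun _ => 0) r j a = 0 := by
  simp [BZ, avC]

theorem dZ_zero (r : ZMod (2 ^ (n + b))) (j a : ℕ) : dZ n b (fun _ => 0) r j a = 0 := by
  simp [dZ, BZ_zero]

theorem FS_dead (hF : Fam d s0 j0 a0 Y W) (k : ι) {v : Node} (hv : v.length < n - j0)
    (h : ¬ TT n j0 a0 W v) : (FS (base0 hF)).B k () v = 0 ∧ (FS (base0 hF)).dB k () v = 0 := by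
  have h1 : W (j0 + v.length) (pos a0 v) = ∅ := by
    rw [← not_nonempty_iff_eq_empty]
    exact fun h2 => h ⟨hv.le, h2⟩
  unfold FS
  rw [sys_B (base0 hF) _ k hv.le, sys_dB (base0 hF) _ k hv, h1, cut_empty, BZ_zero, dZ_zero]
  simp

open Classical in
/-- the weights of `P_T8` on the list tree -/
def bet (d : ZData C1 D n b ι) (j0 a0 : ℕ) (W : ℕ → ℕ → Finset ℕ) (w : ι → ℕ → ℕ → ℝ) (k : ι)
    (v : Node) : ℝ :=
  if (W (j0 + v.length) (pos a0 v)).Nonempty then
    w k (j0 + v.length) (pos a0 v) * av n (j0 + v.length) (pos a0 v) (d.a k) else 0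

theorem bet_nonneg (w : ι → ℕ → ℕ → ℝ) (hw : ∀ k j a, 0 ≤ w k j a) (k : ι) (v : Node) :
    0 ≤ bet d j0 a0 W w k v := by
  unfold bet
  split_ifs
  · exact mul_nonneg (hw _ _ _) (T.H350.av_nonneg (d.a_nonneg k))
  · exact le_rfl

theorem bet_le (hF : Fam d s0 j0 a0 Y W) (w : ι → ℕ → ℕ → ℝ) (hw1 : ∀ k j a, w k j a ≤ 1)
    (hfl : ∀ k j a, w k j a ≠ 0 → d.js k ≤ j ∧ ∀ j', d.js k ≤ j' → j' ≤ j →
      Real.exp (-(C1 * D)) ≤ av n j' (a / 2 ^ (j - j')) (d.a k)) (k : ι) {v : Node}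
    (hv : v.length ≤ n - j0) : bet d j0 a0 W w k v ≤ (FS (base0 hF)).α k v := by
  classical
  have h0 : 0 ≤ av n (j0 + v.length) (pos a0 v) (d.a k) := T.H350.av_nonneg (d.a_nonneg k)
  unfold FS
  rw [sys_α (base0 hF) _ k hv]
  unfold bet
  by_cases hw : w k (j0 + v.length) (pos a0 v) = 0
  · rw [hw]
    split_ifs <;> simp [h0]
  · have hp : Pres d k (j0 + v.length) (pos a0 v) := hfl k _ _ hw
    rw [if_pos hp]
    split_ifs
    · exact mul_le_of_le_one_left h0 (hw1 _ _ _)
    · exact h0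

theorem sum_bet_le (hF : Fam d s0 j0 a0 Y W) (w : ι → ℕ → ℕ → ℝ) {ε : ℝ} (hε : 0 ≤ ε)
    (hm : ∀ j a, j0 ≤ j → j < n → a / 2 ^ (j - j0) = a0 → (W j a).Nonempty →
      ∑ k, w k j a * av n j a (d.a k) ≤ ε) {v : Node} (hv : v.length < n - j0) :
    ∑ k, bet d j0 a0 W w k v ≤ ε := by
  unfold bet
  by_cases h : (W (j0 + v.length) (pos a0 v)).Nonempty
  · simp only [h, if_true]
    exact hm _ _ (by omega) (by omega) ((base0 hF).below v) h
  · simp only [h, if_false, sum_const_zero]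
    exact hε

/-- the left side of `P_T8` -/
theorem lhs_le (hF : Fam d s0 j0 a0 Y W) (w : ι → ℕ → ℕ → ℝ) :
    ∑ j ∈ Ico j0 n, ∑ a ∈ Ico (a0 * 2 ^ (j - j0)) ((a0 + 1) * 2 ^ (j - j0)),
      (∑ k, w k j a * av n j a (d.a k) * ‖dZ n b (cut d.p (W j a)) (d.r k) j a‖ ^ 2)
        / 2 ^ (j - j0)
      = 4 * av n j0 a0 (cut d.p Y) ^ 2 *
        S (n - j0) (fun v => ∑ k, bet d j0 a0 W w k v * ‖(FS (base0 hF)).dB k () v‖ ^ 2) [] := by
  classical
  have hn : n = j0 + (n - j0) := by have := hF.j0_le; omega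
  have h1 := sum_below_eq j0 a0 (n - j0) (fun j a =>
    ∑ k, w k j a * av n j a (d.a k) * ‖dZ n b (cut d.p (W j a)) (d.r k) j a‖ ^ 2)
  rw [← hn] at h1
  rw [h1, ← S_smul]
  refine S_congr _ [] fun v hv => ?_
  simp only [List.length_nil, add_zero] at hv
  rw [mul_sum]
  refine sum_congr rfl fun k _ => ?_
  have hb := (base0 hF).bt_pos
  rw [← pos_eq_ia]
  have h2 : (FS (base0 hF)).dB k () v = dZ n b (cut d.p (W (j0 + v.length) (pos a0 v))) (d.r k)
      (j0 + v.length) (pos a0 v) / ((bt d j0 a0 Y : ℝ) : ℂ) := sys_dB (base0 hF) _ k hv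
  rw [h2, norm_div, Complex.norm_real, Real.norm_of_nonneg hb.le]
  unfold bet
  by_cases h : (W (j0 + v.length) (pos a0 v)).Nonempty
  · rw [if_pos h]
    have h3 : 4 * av n j0 a0 (cut d.p Y) ^ 2 = bt d j0 a0 Y ^ 2 := by unfold bt; ring
    rw [h3]
    field_simp
  · rw [if_neg h, not_nonempty_iff_eq_empty.1 h, cut_empty, dZ_zero]
    simp

end fam

end Vale.Agent.P091.T.H454
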