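import Vale.Agent.P091.T.H454.Low
import Vale.Agent.P091.T.H350.Bridge
import Vale.Agent.P091.T.Defs
import Vale.Agent.P091.T.H937.CoreDef
import Vale.Agent.P091.T8.H655.Use

/-! # FAMSYS: the letter system of a family `Fam` on the list tree below a node

The node `v` of the list tree below `(j1, a1)` is the node `(j1 + |v|, a1 2^|v| + ix v)` of the
integer model. -/

set_option autoImplicit false

open Finset
open Vale.Agent.P091.Spec (av avC nd)
open Vale.Agent.P091.H413 Vale.Agent.P091.T.H587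
open Vale.Agent.P091.T.H350 (ix ix_true ix_false ix_nil ix_lt ix_append av_mart avC_mart av_leaf
  avC_leaf av_nonneg av_mono av_le_const av_sum mem_nd nd_split)

noncomputable section

namespace Vale.Agent.P091.T.H454

/-! ## the node of the integer model -/

/-- index of the node `v` of the list tree below a node with index `a1` -/
def pos (a1 : ℕ) (v : Node) : ℕ := a1 * 2 ^ v.length + ix v

@[simp] theorem pos_nil (a1 : ℕ) : pos a1 [] = a1 := by simp [pos]

theorem pos_true (a1 : ℕ) (v : Node) : pos a1 (true :: v) = 2 * pos a1 v := by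
  unfold pos
  rw [ix_true, List.length_cons, pow_succ]
  ring

theorem pos_false (a1 : ℕ) (v : Node) : pos a1 (false :: v) = 2 * pos a1 v + 1 := by
  unfold pos
  rw [ix_false, List.length_cons, pow_succ]
  ring

theorem pos_div_two (a1 : ℕ) (c : Bool) (v : Node) : pos a1 (c :: v) / 2 = pos a1 v := by
  cases c
  · rw [pos_false]; omega
  · rw [pos_true]; omega

theorem pos_append (a1 : ℕ) (w u : Node) : pos a1 (w ++ u) / 2 ^ w.length = pos a1 u := by
  induction w with
  | nil => simp
  | cons c w ih =>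
    rw [List.cons_append, List.length_cons, pow_succ', ← Nat.div_div_eq_div_mul, pos_div_two, ih]

theorem pos_div (a1 : ℕ) (v : Node) : pos a1 v / 2 ^ v.length = a1 := by
  have := pos_append a1 v []
  simpa using this

theorem Lf_pos {n j1 : ℕ} (a1 : ℕ) (hn : j1 ≤ n) (F : ℕ → ℝ) (m : ℕ) {v : Node}
    (hv : v.length + m = n - j1) :
    Lf m (fun x => F (pos a1 x)) v = av n (j1 + v.length) (pos a1 v) F := by
  induction m generalizing v with
  | zero =>
    have h : j1 + v.length = n := by omega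
    rw [h, av_leaf]
    rfl
  | succ m ih =>
    simp only [Lf]
    rw [av_mart (by omega), ih (v := true :: v) (by simp only [List.length_cons]; omega),
      ih (v := false :: v) (by simp only [List.length_cons]; omega), pos_true, pos_false]
    rfl

theorem Lc_pos {n j1 : ℕ} (a1 : ℕ) (hn : j1 ≤ n) (F : ℕ → ℂ) (m : ℕ) {v : Node}
    (hv : v.length + m = n - j1) :
    Lc m (fun x => F (pos a1 x)) v = avC n (j1 + v.length) (pos a1 v) F := by
  induction m generalizing v with
  | zero =>
    have h : j1 + v.length = n := by omega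
    rw [h, avC_leaf]
    rfl
  | succ m ih =>
    simp only [Lc]
    rw [avC_mart (by omega), ih (v := true :: v) (by simp only [List.length_cons]; omega),
      ih (v := false :: v) (by simp only [List.length_cons]; omega), pos_true, pos_false]
    rfl

theorem anc_succ {j : ℕ} {x : Node} (h : j + 1 ≤ x.length) :
    ∃ c, anc (j + 1) x = c :: anc j x := by
  unfold anc
  have h1 : x.length - (j + 1) < x.length := by omega
  refine ⟨x[x.length - (j + 1)], ?_⟩
  rw [List.drop_eq_getElem_cons h1]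
  congr 2
  omega

theorem anc_length {j : ℕ} {x : Node} (h : j ≤ x.length) : (anc j x).length = j := by
  unfold anc
  rw [List.length_drop]
  omega

section fam

variable {C1 D : ℝ} {n b : ℕ} {ι : Type} [Fintype ι] (d : ZData C1 D n b ι)

/-- the class `k` is present at the node: it has started and has been above the floor since -/
def Pres (k : ι) (j a : ℕ) : Prop := d.js k ≤ j ∧ ∀ j', d.js k ≤ j' → j' ≤ j →
  Real.exp (-(C1 * D)) ≤ av n j' (a / 2 ^ (j - j')) (d.a k)

variable {d} in
theorem Pres.up {k : ι} {j a : ℕ} (h : Pres d k (j + 1) a) (hj : d.js k ≤ j) :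
    Pres d k j (a / 2) := by
  refine ⟨hj, fun j' h1 h2 => ?_⟩
  have h3 := h.2 j' h1 (by omega)
  rw [Nat.div_div_eq_div_mul, ← pow_succ']
  have e : j - j' + 1 = j + 1 - j' := by omega
  rwa [e]

variable {d} in
theorem Pres.floor {k : ι} {j a : ℕ} (h : Pres d k j a) :
    Real.exp (-(C1 * D)) ≤ av n j a (d.a k) := by
  have := h.2 j h.1 le_rfl
  simpa using this

/-- the base of the list tree: a node `(j1, a1)` below `(j0, a0)` -/
structure Base (s0 : ℝ) (j0 a0 : ℕ) (Y : Finset ℕ) (W : ℕ → ℕ → Finset ℕ) (j1 a1 : ℕ) : Prop where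
  fam : Fam d s0 j0 a0 Y W
  h01 : j0 ≤ j1
  h1n : j1 ≤ n
  ha : a1 / 2 ^ (j1 - j0) = a0

variable {d} {s0 : ℝ} {j0 a0 : ℕ} {Y : Finset ℕ} {W : ℕ → ℕ → Finset ℕ} {j1 a1 : ℕ}

theorem Base.below (hB : Base d s0 j0 a0 Y W j1 a1) (v : Node) :
    pos a1 v / 2 ^ (j1 + v.length - j0) = a0 := by
  have h := hB.h01
  have e : j1 + v.length - j0 = v.length + (j1 - j0) := by omega
  rw [e, pow_add, ← Nat.div_div_eq_div_mul, pos_div, hB.ha]

/-- the departure sets decrease along the tree -/
theorem Base.W_anti (hB : Base d s0 j0 a0 Y W j1 a1) (c : Bool) {v : Node}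
    (hv : v.length < n - j1) :
    W (j1 + (v.length + 1)) (pos a1 (c :: v)) ⊆ W (j1 + v.length) (pos a1 v) := by
  have h := hB.h01
  have h1 := hB.fam.W_sub (j1 + (v.length + 1)) (pos a1 (c :: v)) (by omega) (by omega)
    (by have := hB.below (c :: v); rwa [List.length_cons] at this)
  unfold arr at h1
  rw [if_neg (by omega), pos_div_two] at h1
  refine h1.trans ?_
  exact inter_subset_left

open Classical in
/-- y-weight of the leaf `y` after the modifications of the level `j` -/
def gw (hB : Base d s0 j0 a0 Y W j1 a1) (β : ℝ) (j : ℕ) (y : Node) : ℝ :=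
  if pos a1 y ∈ W (j1 + min j (n - j1)) (pos a1 (anc (min j (n - j1)) y)) then
    d.p (pos a1 y) / β else 0

open Classical in
/-- x-weight of the leaf `x` in the class `k` after the modifications of the level `j` -/
def aw (hB : Base d s0 j0 a0 Y W j1 a1) (k : ι) (j : ℕ) (x : Node) : ℝ :=
  if Pres d k (j1 + min j (n - j1)) (pos a1 (anc (min j (n - j1)) x)) then
    d.a k (pos a1 x) else 0

theorem aw_nonneg (hB : Base d s0 j0 a0 Y W j1 a1) (k : ι) (j : ℕ) (x : Node) :
    0 ≤ aw hB k j x := by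
  unfold aw
  split_ifs
  · exact d.a_nonneg _ _
  · exact le_rfl

theorem aw_anti (hB : Base d s0 j0 a0 Y W j1 a1) (k : ι) (j : ℕ) (x : Node)
    (hx : x.length = n - j1) (hj : d.js k - j1 ≤ j) : aw hB k (j + 1) x ≤ aw hB k j x := by
  rcases Nat.lt_or_ge j (n - j1) with h | h
  · unfold aw
    have e1 : min (j + 1) (n - j1) = j + 1 := by omega
    have e2 : min j (n - j1) = j := by omega
    rw [e1, e2]
    by_cases hp : Pres d k (j1 + (j + 1)) (pos a1 (anc (j + 1) x))
    · rw [if_pos hp]
      obtain ⟨c, hc⟩ := anc_succ (j := j) (x := x) (by omega)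
      have h2 : Pres d k (j1 + j) (pos a1 (anc (j + 1) x) / 2) :=
        Pres.up (a := pos a1 (anc (j + 1) x)) hp (by omega)
      rw [hc, pos_div_two] at h2
      rw [if_pos h2]
    · rw [if_neg hp]
      split_ifs
      · exact d.a_nonneg _ _
      · exact le_rfl
  · unfold aw
    have e1 : min (j + 1) (n - j1) = min j (n - j1) := by omega
    rw [e1]

theorem gw_nonneg (hB : Base d s0 j0 a0 Y W j1 a1) {β : ℝ} (hβ : 0 ≤ β) (j : ℕ) (y : Node) :
    0 ≤ gw hB β j y := by
  unfold gw
  split_ifs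
  · exact div_nonneg (d.p_nonneg _) hβ
  · exact le_rfl

theorem gw_anti (hB : Base d s0 j0 a0 Y W j1 a1) {β : ℝ} (hβ : 0 ≤ β) (j : ℕ) (y : Node)
    (hy : y.length = n - j1) : gw hB β (j + 1) y ≤ gw hB β j y := by
  rcases Nat.lt_or_ge j (n - j1) with h | h
  · unfold gw
    have e1 : min (j + 1) (n - j1) = j + 1 := by omega
    have e2 : min j (n - j1) = j := by omega
    rw [e1, e2]
    obtain ⟨c, hc⟩ := anc_succ (j := j) (x := y) (by omega)
    have hl : (anc j y).length = j := anc_length (by omega)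
    have h3 := hB.W_anti c (v := anc j y) (by omega)
    rw [hl, ← hc] at h3
    split_ifs with h4 h5
    · exact le_rfl
    · exact absurd (h3 h4) h5
    · exact div_nonneg (d.p_nonneg _) hβ
    · exact le_rfl
  · unfold gw
    have e1 : min (j + 1) (n - j1) = min j (n - j1) := by omega
    rw [e1]

/-- the leaf data of the family -/
def ld (hB : Base d s0 j0 a0 Y W j1 a1) {β : ℝ} (hβ : 0 ≤ β) : LeafData ι Unit (n - j1) where
  act k := d.js k - j1
  a k j x := aw hB k j x
  c k _ j x := ((aw hB k j x : ℝ) : ℂ)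
  g _ j y := gw hB β j y
  e k y := ch n b (-(d.r k * (pos a1 y : ℕ)))
  a_nonneg := aw_nonneg hB
  a_act k j x hj := by
    unfold aw
    rw [if_neg]
    intro hp
    have := hp.1
    omega
  a_sum j x _ := by
    refine le_trans (sum_le_sum fun k _ => ?_) (d.a_sum (pos a1 x))
    unfold aw
    split_ifs
    · exact le_rfl
    · exact d.a_nonneg _ _
  c_le k q j x _ := by
    rw [Complex.norm_real, Real.norm_of_nonneg (aw_nonneg hB k j x)]
  a_anti k j x hx hj := aw_anti hB k j x hx hj
  c_jump k q j x hx hj := by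
    have h := aw_anti hB k j x hx hj
    rw [← Complex.ofReal_sub, Complex.norm_real, Real.norm_of_nonneg (by linarith)]
  g_nonneg _ j y := gw_nonneg hB hβ j y
  g_anti _ j y hy := gw_anti hB hβ j y hy
  e_le k y := by
    unfold ch
    rw [AddChar.norm_apply]

/-! ## the node averages of the system -/

theorem av_div (n j a : ℕ) (F : ℕ → ℝ) (β : ℝ) :
    av n j a (fun i => F i / β) = av n j a F / β := by
  unfold av
  rw [← sum_div, div_right_comm]

theorem avC_div (n j a : ℕ) (F : ℕ → ℂ) (β : ℂ) :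
    avC n j a (fun i => F i / β) = avC n j a F / β := by
  unfold avC
  rw [← sum_div, div_right_comm]

open Classical in
theorem sys_α (hB : Base d s0 j0 a0 Y W j1 a1) {β : ℝ} (hβ : 0 ≤ β) (k : ι) {v : Node}
    (hv : v.length ≤ n - j1) :
    (ld hB hβ).sys.α k v = if Pres d k (j1 + v.length) (pos a1 v) then
      av n (j1 + v.length) (pos a1 v) (d.a k) else 0 := by
  change Lf (n - j1 - v.length) (aw hB k v.length) v = _
  rw [← Lf_pos a1 hB.h1n (d.a k) (n - j1 - v.length) (by omega)]
  have e : min v.length (n - j1) = v.length := by omega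
  by_cases h : Pres d k (j1 + v.length) (pos a1 v)
  · rw [if_pos h]
    refine Lf_below _ _ fun l _ => ?_
    unfold aw
    rw [e, anc_append, if_pos h]
  · rw [if_neg h]
    rw [Lf_below _ (G := fun _ => 0) v, Lf_const]
    intro l _
    unfold aw
    rw [e, anc_append, if_neg h]

open Classical in
theorem sys_α' (hB : Base d s0 j0 a0 Y W j1 a1) {β : ℝ} (hβ : 0 ≤ β) (k : ι) {v : Node} (c : Bool)
    (hv : v.length < n - j1) :
    (ld hB hβ).sys.α' k (c :: v) = if Pres d k (j1 + v.length) (pos a1 v) then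
      av n (j1 + (v.length + 1)) (pos a1 (c :: v)) (d.a k) else 0 := by
  change Lf (n - j1 - (c :: v).length) (aw hB k ((c :: v).length - 1)) (c :: v) = _
  have hl : (c :: v).length = v.length + 1 := List.length_cons
  have h0 := Lf_pos a1 hB.h1n (d.a k) (n - j1 - (c :: v).length) (v := c :: v)
    (by rw [hl]; omega)
  rw [hl] at h0
  rw [← h0, hl]
  have e : min (v.length + 1 - 1) (n - j1) = v.length := by omega
  by_cases h : Pres d k (j1 + v.length) (pos a1 v)
  · rw [if_pos h]
    refine Lf_below _ _ fun l _ => ?_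
    unfold aw
    rw [e, anc_append_cons, if_pos h]
  · rw [if_neg h]
    rw [Lf_below _ (G := fun _ => 0) (c :: v), Lf_const]
    intro l _
    unfold aw
    rw [e, anc_append_cons, if_neg h]

theorem sys_G (hB : Base d s0 j0 a0 Y W j1 a1) {β : ℝ} (hβ : 0 ≤ β) {v : Node}
    (hv : v.length ≤ n - j1) :
    (ld hB hβ).sys.G () v = av n (j1 + v.length) (pos a1 v)
      (cut d.p (W (j1 + v.length) (pos a1 v))) / β := by
  change Lf (n - j1 - v.length) (gw hB β v.length) v = _
  rw [← av_div, ← Lf_pos a1 hB.h1n _ (n - j1 - v.length) (by omega)]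
  have e : min v.length (n - j1) = v.length := by omega
  refine Lf_below _ _ fun l _ => ?_
  unfold gw cut
  rw [e, anc_append]
  split_ifs
  · rfl
  · simp

theorem sys_G' (hB : Base d s0 j0 a0 Y W j1 a1) {β : ℝ} (hβ : 0 ≤ β) {v : Node} (c : Bool)
    (hv : v.length < n - j1) :
    (ld hB hβ).sys.G' () (c :: v) = av n (j1 + (v.length + 1)) (pos a1 (c :: v))
      (cut d.p (W (j1 + v.length) (pos a1 v))) / β := by
  change Lf (n - j1 - (c :: v).length) (gw hB β ((c :: v).length - 1)) (c :: v) = _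
  have hl : (c :: v).length = v.length + 1 := List.length_cons
  have h0 := Lf_pos a1 hB.h1n (fun i => cut d.p (W (j1 + v.length) (pos a1 v)) i / β)
    (n - j1 - (c :: v).length) (v := c :: v) (by rw [hl]; omega)
  rw [hl] at h0
  rw [← av_div, ← h0, hl]
  have e : min (v.length + 1 - 1) (n - j1) = v.length := by omega
  refine Lf_below _ _ fun l _ => ?_
  unfold gw cut
  rw [e, anc_append_cons]
  split_ifs
  · rfl
  · simp

theorem sys_G0' (hB : Base d s0 j0 a0 Y W j1 a1) {β : ℝ} (hβ : 0 ≤ β) :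
    (ld hB hβ).sys.G' () [] = (ld hB hβ).sys.G () [] := rfl

theorem sys_B (hB : Base d s0 j0 a0 Y W j1 a1) {β : ℝ} (hβ : 0 ≤ β) (k : ι) {v : Node}
    (hv : v.length ≤ n - j1) :
    (ld hB hβ).sys.B k () v = BZ n b (cut d.p (W (j1 + v.length) (pos a1 v))) (d.r k)
      (j1 + v.length) (pos a1 v) / (β : ℂ) := by
  change Lc (n - j1 - v.length) (fun y => (gw hB β v.length y : ℂ) *
    ch n b (-(d.r k * (pos a1 y : ℕ)))) v = _
  unfold BZ
  rw [← avC_div, ← Lc_pos a1 hB.h1n _ (n - j1 - v.length) (by omega)]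
  have e : min v.length (n - j1) = v.length := by omega
  refine Lc_below _ _ fun l _ => ?_
  unfold gw cut
  rw [e, anc_append]
  split_ifs
  · push_cast; ring
  · simp

theorem sys_B' (hB : Base d s0 j0 a0 Y W j1 a1) {β : ℝ} (hβ : 0 ≤ β) (k : ι) {v : Node} (c : Bool)
    (hv : v.length < n - j1) :
    (ld hB hβ).sys.B' k () (c :: v) = BZ n b (cut d.p (W (j1 + v.length) (pos a1 v))) (d.r k)
      (j1 + (v.length + 1)) (pos a1 (c :: v)) / (β : ℂ) := by
  change Lc (n - j1 - (c :: v).length) (fun y => (gw hB β ((c :: v).length - 1) y : ℂ) *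
    ch n b (-(d.r k * (pos a1 y : ℕ)))) (c :: v) = _
  have hl : (c :: v).length = v.length + 1 := List.length_cons
  have h0 := Lc_pos a1 hB.h1n (fun i => ((cut d.p (W (j1 + v.length) (pos a1 v)) i : ℝ) : ℂ) *
    ch n b (-(d.r k * i)) / (β : ℂ)) (n - j1 - (c :: v).length) (v := c :: v) (by rw [hl]; omega)
  rw [hl] at h0
  unfold BZ
  rw [← avC_div, ← h0, hl]
  have e : min (v.length + 1 - 1) (n - j1) = v.length := by omega
  refine Lc_below _ _ fun l _ => ?_
  unfold gw cut
  rw [e, anc_append_cons]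
  split_ifs
  · push_cast; ring
  · simp

theorem sys_B0' (hB : Base d s0 j0 a0 Y W j1 a1) {β : ℝ} (hβ : 0 ≤ β) (k : ι) :
    (ld hB hβ).sys.B' k () [] = (ld hB hβ).sys.B k () [] := rfl

theorem sys_dB (hB : Base d s0 j0 a0 Y W j1 a1) {β : ℝ} (hβ : 0 ≤ β) (k : ι) {v : Node}
    (hv : v.length < n - j1) :
    (ld hB hβ).sys.dB k () v = dZ n b (cut d.p (W (j1 + v.length) (pos a1 v))) (d.r k)
      (j1 + v.length) (pos a1 v) / (β : ℂ) := by
  unfold ESys.dB dZ
  rw [sys_B' hB hβ k true hv, sys_B' hB hβ k false hv, pos_true, pos_false]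
  have e : j1 + (v.length + 1) = j1 + v.length + 1 := by ring
  rw [e]
  ring

/-! ## densities -/

theorem cut_nonneg (p : ℕ → ℝ) (hp : ∀ i, 0 ≤ p i) (Z : Finset ℕ) (i : ℕ) : 0 ≤ cut p Z i := by
  unfold cut
  split_ifs
  · exact hp i
  · exact le_rfl

theorem cut_mono {p : ℕ → ℝ} (hp : ∀ i, 0 ≤ p i) {Z Z' : Finset ℕ} (h : Z ⊆ Z') (i : ℕ) :
    cut p Z i ≤ cut p Z' i := by
  unfold cut
  split_ifs with h1 h2
  · exact le_rfl
  · exact absurd (h h1) h2
  · exact hp i
  · exact le_rfl

theorem Base.dens_le (hB : Base d s0 j0 a0 Y W j1 a1) {v : Node} (hv : v.length ≤ n - j1) :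
    av n (j1 + v.length) (pos a1 v) (cut d.p (W (j1 + v.length) (pos a1 v))) ≤
      2 * av n j0 a0 (cut d.p Y) := by
  have h1 := hB.h01
  have h2 := hB.h1n
  rcases (W (j1 + v.length) (pos a1 v)).eq_empty_or_nonempty with h | h
  · rw [h]
    have e : cut d.p ∅ = fun _ => 0 := by
      funext i
      simp [cut]
    have e2 : av n (j1 + v.length) (pos a1 v) (fun _ => (0:ℝ)) = 0 := by
      simp [av]
    rw [e, e2]
    have := av_nonneg (n := n) (j := j0) (a := a0) (cut_nonneg d.p d.p_nonneg Y)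
    linarith
  · refine le_trans (av_mono fun i _ => ?_)
      (hB.fam.W_le (j1 + v.length) (pos a1 v) (by omega) (by omega) (hB.below v) h)
    exact cut_mono d.p_nonneg
      (hB.fam.W_sub (j1 + v.length) (pos a1 v) (by omega) (by omega) (hB.below v)) i

theorem av_child_le {n j a : ℕ} (hj : j < n) {F : ℕ → ℝ} (hF : ∀ i, 0 ≤ F i) :
    av n (j + 1) (2 * a) F ≤ 2 * av n j a F ∧ av n (j + 1) (2 * a + 1) F ≤ 2 * av n j a F := by
  have h := av_mart hj a F
  have h1 := av_nonneg (n := n) (j := j + 1) (a := 2 * a) hF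
  have h2 := av_nonneg (n := n) (j := j + 1) (a := 2 * a + 1) hF
  constructor <;> linarith

theorem Base.pos_β (hB : Base d s0 j0 a0 Y W j1 a1) : 0 < av n j0 a0 (cut d.p Y) :=
  (Real.exp_pos _).trans_le hB.fam.dens

/-- arrival densities -/
theorem Base.dens'_le (hB : Base d s0 j0 a0 Y W j1 a1) (c : Bool) {v : Node}
    (hv : v.length < n - j1) :
    av n (j1 + (v.length + 1)) (pos a1 (c :: v)) (cut d.p (W (j1 + v.length) (pos a1 v))) ≤
      2 * (2 * av n j0 a0 (cut d.p Y)) := by
  have h1 := hB.dens_le hv.le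
  have h2 := av_child_le (n := n) (j := j1 + v.length) (a := pos a1 v) (by omega)
    (cut_nonneg d.p d.p_nonneg (W (j1 + v.length) (pos a1 v)))
  have e : j1 + (v.length + 1) = j1 + v.length + 1 := by ring
  rw [e]
  cases c
  · rw [pos_false]; linarith [h2.2]
  · rw [pos_true]; linarith [h2.1]

/-- the normalisation -/
def bt (d : ZData C1 D n b ι) (j0 a0 : ℕ) (Y : Finset ℕ) : ℝ := 2 * av n j0 a0 (cut d.p Y)

theorem bt_nonneg (d : ZData C1 D n b ι) (j0 a0 : ℕ) (Y : Finset ℕ) : 0 ≤ bt d j0 a0 Y := by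
  unfold bt
  have := av_nonneg (n := n) (j := j0) (a := a0) (cut_nonneg d.p d.p_nonneg Y)
  linarith

theorem Base.bt_pos (hB : Base d s0 j0 a0 Y W j1 a1) : 0 < bt d j0 a0 Y := by
  unfold bt
  have := hB.pos_β
  linarith

/-- the letter system of the family below `(j1, a1)`, densities divided by `2 B(j0, a0)` -/
def FS (hB : Base d s0 j0 a0 Y W j1 a1) : ESys ι Unit := (ld hB (bt_nonneg d j0 a0 Y)).sys

theorem FS_ok (hB : Base d s0 j0 a0 Y W j1 a1) : (FS hB).Ok (n - j1) := by
  refine (ld hB (bt_nonneg d j0 a0 Y)).ok fun v hv => ?_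
  have hb := hB.bt_pos
  have key : Lf (n - j1 - v.length) (fun y => ∑ q, (ld hB (bt_nonneg d j0 a0 Y)).g q
      (v.length - 1) y) v = (FS hB).G' () v := by
    change _ = Lf (n - j1 - v.length) (gw hB (bt d j0 a0 Y) (v.length - 1)) v
    refine Lf_below _ _ fun l _ => ?_
    simp [ld]
  rw [key]
  cases v with
  | nil =>
    have h1 := hB.dens_le (v := []) (by simp)
    have h2 : (FS hB).G' () [] = (FS hB).G () [] := rfl
    rw [h2]
    unfold FS
    rw [sys_G hB _ (by simp), div_le_iff₀ hb]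
    unfold bt
    have := hB.pos_β
    linarith
  | cons c v =>
    have hv' : v.length < n - j1 := by simpa using hv
    have h1 := hB.dens'_le c hv'
    unfold FS
    rw [sys_G' hB _ c hv', div_le_iff₀ hb]
    unfold bt
    exact h1

theorem FS_plain (hB : Base d s0 j0 a0 Y W j1 a1) :
    Vale.Agent.P091.T8.H655.Plain (FS hB) (n - j1) where
  A k v _ := Lc_ofReal (n - j1 - v.length) (aw hB k v.length) v
  A' k v _ := Lc_ofReal (n - j1 - v.length) (aw hB k (v.length - 1)) v

theorem FS_removed (hB : Base d s0 j0 a0 Y W j1 a1) : S (n - j1) (FS hB).lα [] ≤ 1 := by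
  refine (ld hB (bt_nonneg d j0 a0 Y)).removed_le fun x hx => ?_
  rw [sum_comm]
  refine le_trans (sum_le_sum fun k _ => ?_) (d.a_sum (pos a1 x))
  refine (tele_le (fun j => aw hB k j x) (d.js k - j1) (fun j => aw_nonneg hB k j x)
    (fun j hj => (ld hB (bt_nonneg d j0 a0 Y)).a_act k j x hj)
    (fun j hj => aw_anti hB k j x hx hj) (n - j1)).trans ?_
  change aw hB k (d.js k - j1) x ≤ _
  unfold aw
  split_ifs
  · exact le_rfl
  · exact d.a_nonneg _ _

theorem FS_energy (hB : Base d s0 j0 a0 Y W j1 a1) (h : 0 ≤ C1 * D) :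
    S (n - j1) (FS hB).e1 [] ≤ 2 * (2 * (C1 * D) + 1) := by
  classical
  have := LE.H219.esys_x_energy_act (FS_ok hB) (C1 * D) 1 h ?_ (FS_removed hB)
  · refine this.trans (le_of_eq ?_)
    ring
  intro k v hv _
  unfold FS
  rw [sys_α hB _ k hv.le]
  split_ifs with hp
  · exact Or.inr hp.floor
  · exact Or.inl rfl

end fam

end Vale.Agent.P091.T.H454
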