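import Vale.Agent.P091.T.H587.Leaf
import Vale.Agent.P091.LE.H219.ESysEnergy
import Vale.Agent.P091.LE.H43.E4

/-! # T8, part LOW: energy of the letters which have not been biased yet

`K` = fine letters (one letter per class, one value).  A letter is *low* at `v` when its bias is
at most `δ` on departure from `v` and on arrival at both children, *entered* at `v` when it is not
low at some node between its start and `v`. -/

open Finset Vale.Agent.P091.H413 Vale.Agent.P091.T.H587

namespace Vale.Agent.P091.T.H454

/-! ## averages depend on the leaves below the node only -/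

theorem Lf_below (m : ℕ) {F G : Node → ℝ} (v : Node)
    (h : ∀ l : Node, l.length = m → F (l ++ v) = G (l ++ v)) : Lf m F v = Lf m G v := by
  induction m generalizing v with
  | zero => exact h [] rfl
  | succ m ih =>
    simp only [Lf]
    rw [ih (true :: v) (fun l hl => by
        have := h (l ++ [true]) (by simp [hl]); simpa using this),
      ih (false :: v) (fun l hl => by
        have := h (l ++ [false]) (by simp [hl]); simpa using this)]

theorem Lf_mono_below (m : ℕ) {F G : Node → ℝ} (v : Node)
    (h : ∀ l : Node, l.length = m → F (l ++ v) ≤ G (l ++ v)) : Lf m F v ≤ Lf m G v := by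
  induction m generalizing v with
  | zero => exact h [] rfl
  | succ m ih =>
    simp only [Lf]
    have h1 := ih (true :: v) (fun l hl => by
        have := h (l ++ [true]) (by simp [hl]); simpa using this)
    have h2 := ih (false :: v) (fun l hl => by
        have := h (l ++ [false]) (by simp [hl]); simpa using this)
    linarith

theorem Lc_below (m : ℕ) {F G : Node → ℂ} (v : Node)
    (h : ∀ l : Node, l.length = m → F (l ++ v) = G (l ++ v)) : Lc m F v = Lc m G v := by
  induction m generalizing v with
  | zero => exact h [] rfl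
  | succ m ih =>
    simp only [Lc]
    rw [ih (true :: v) (fun l hl => by
        have := h (l ++ [true]) (by simp [hl]); simpa using this),
      ih (false :: v) (fun l hl => by
        have := h (l ++ [false]) (by simp [hl]); simpa using this)]

theorem Lc_ofReal (m : ℕ) (F : Node → ℝ) (v : Node) :
    Lc m (fun x => (F x : ℂ)) v = ((Lf m F v : ℝ) : ℂ) := by
  induction m generalizing v with
  | zero => rfl
  | succ m ih =>
    simp only [Lc, Lf, ih]
    push_cast
    ring

/-- the ancestor of level `j` -/
def anc (j : ℕ) (x : Node) : Node := x.drop (x.length - j)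

theorem anc_append (l v : Node) : anc v.length (l ++ v) = v := by
  unfold anc
  simp

theorem anc_append_cons (l v : Node) (c : Bool) : anc v.length (l ++ c :: v) = v := by
  unfold anc
  have h1 : (l ++ c :: v).length - v.length = (l ++ [c]).length := by
    simp only [List.length_append, List.length_cons, List.length_nil]; omega
  have h2 : l ++ c :: v = (l ++ [c]) ++ v := by simp
  rw [h1, h2, List.drop_left]

theorem anc_suffix (j : ℕ) (x : Node) : anc j x <:+ anc (j + 1) x := by
  unfold anc
  rcases Nat.lt_or_ge j x.length with h | h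
  · have : x.length - j = 1 + (x.length - (j + 1)) := by omega
    rw [this, Nat.add_comm, ← List.drop_drop]
    exact List.drop_suffix _ _
  · have h1 : x.length - j = 0 := by omega
    have h2 : x.length - (j + 1) = 0 := by omega
    rw [h1, h2]

section sys

variable {K : Type} [Fintype K] {n : ℕ} (d : LeafData K Unit n) (δ : ℝ)

/-- low at `v`: bias at most `δ` on departure and on arrival at the children -/
def low (κ : K) (v : Node) : Prop :=
  ‖d.sys.B κ () v‖ ≤ δ ∧ ∀ c : Bool, ‖d.sys.B' κ () (c :: v)‖ ≤ δ

/-- entered at `v`: not low at some node between the start and `v` -/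
def ent (κ : K) (v : Node) : Prop :=
  ∃ s : Node, s <:+ v ∧ d.act κ ≤ s.length ∧ ¬ low d δ κ s

theorem ent_mono {κ : K} {v w : Node} (h : v <:+ w) (hv : ent d δ κ v) : ent d δ κ w := by
  obtain ⟨s, h1, h2, h3⟩ := hv
  exact ⟨s, h1.trans h, h2, h3⟩

open Classical in
/-- the killed system -/
noncomputable def kill : LeafData K Unit n where
  act := d.act
  a κ j x := if ent d δ κ (anc j x) then 0 else d.a κ j x
  c κ _ j x := ((if ent d δ κ (anc j x) then 0 else d.a κ j x : ℝ) : ℂ)
  g := d.g
  e := d.e
  a_nonneg κ j x := by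
    split_ifs
    · exact le_rfl
    · exact d.a_nonneg κ j x
  a_act κ j x h := by
    rw [d.a_act κ j x h]
    simp
  a_sum j x hx := by
    refine (sum_le_sum fun κ _ => ?_).trans (d.a_sum j x hx)
    split_ifs
    · exact d.a_nonneg κ j x
    · exact le_rfl
  c_le κ q j x hx := by
    rw [Complex.norm_real, Real.norm_of_nonneg]
    split_ifs
    · exact le_rfl
    · exact d.a_nonneg κ j x
  a_anti κ j x hx hj := by
    have h1 := d.a_anti κ j x hx hj
    have h2 := d.a_nonneg κ j x
    have h3 : ent d δ κ (anc j x) → ent d δ κ (anc (j + 1) x) := ent_mono d δ (anc_suffix j x)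
    by_cases h : ent d δ κ (anc j x)
    · rw [if_pos h, if_pos (h3 h)]
    · rw [if_neg h]
      split_ifs
      · exact h2
      · exact h1
  c_jump κ q j x hx hj := by
    have h1 := d.a_anti κ j x hx hj
    have h2 := d.a_nonneg κ j x
    have h3 : ent d δ κ (anc j x) → ent d δ κ (anc (j + 1) x) := ent_mono d δ (anc_suffix j x)
    rw [← Complex.ofReal_sub, Complex.norm_real, Real.norm_of_nonneg]
    by_cases h : ent d δ κ (anc j x)
    · rw [if_pos h, if_pos (h3 h)]; simp
    · rw [if_neg h]
      split_ifs
      · linarith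
      · linarith
  g_nonneg := d.g_nonneg
  g_anti := d.g_anti
  e_le := d.e_le

open Classical in
theorem kill_α (κ : K) {v : Node} (hv : v.length ≤ n) :
    (kill d δ).sys.α κ v = if ent d δ κ v then 0 else d.sys.α κ v := by
  have h1 : (kill d δ).sys.α κ v = Lf (n - v.length)
      (fun x => if ent d δ κ (anc v.length x) then 0 else d.a κ v.length x) v := rfl
  rw [h1]
  by_cases h : ent d δ κ v
  · rw [if_pos h]
    rw [Lf_below (n - v.length) (G := fun _ => 0) v, Lf_const]
    intro l _
    rw [anc_append, if_pos h]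
  · rw [if_neg h]
    refine Lf_below _ _ ?_
    intro l _
    rw [anc_append, if_neg h]

open Classical in
theorem kill_α' (κ : K) (v : Node) (c : Bool) :
    (kill d δ).sys.α' κ (c :: v) = if ent d δ κ v then 0 else d.sys.α' κ (c :: v) := by
  have h1 : (kill d δ).sys.α' κ (c :: v) = Lf (n - (c :: v).length)
      (fun x => if ent d δ κ (anc ((c :: v).length - 1) x) then 0
        else d.a κ ((c :: v).length - 1) x) (c :: v) := rfl
  have h2 : d.sys.α' κ (c :: v) = Lf (n - (c :: v).length)
      (d.a κ ((c :: v).length - 1)) (c :: v) := rfl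
  have h3 : (c :: v).length - 1 = v.length := by simp
  rw [h1, h2, h3]
  by_cases h : ent d δ κ v
  · rw [if_pos h]
    rw [Lf_below _ (G := fun _ => 0) (c :: v), Lf_const]
    intro l _
    rw [anc_append_cons, if_pos h]
  · rw [if_neg h]
    refine Lf_below _ _ ?_
    intro l _
    rw [anc_append_cons, if_neg h]

theorem kill_A (κ : K) (v : Node) :
    (kill d δ).sys.A κ () v = (((kill d δ).sys.α κ v : ℝ) : ℂ) := Lc_ofReal _ _ _

theorem kill_A' (κ : K) (v : Node) :
    (kill d δ).sys.A' κ () v = (((kill d δ).sys.α' κ v : ℝ) : ℂ) := Lc_ofReal _ _ _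

theorem kill_B (κ : K) (v : Node) : (kill d δ).sys.B κ () v = d.sys.B κ () v := rfl

theorem kill_B' (κ : K) (v : Node) : (kill d δ).sys.B' κ () v = d.sys.B' κ () v := rfl

theorem kill_dB (κ : K) (v : Node) : (kill d δ).sys.dB κ () v = d.sys.dB κ () v := rfl

theorem kill_ok (hg : ∀ v : Node, v.length ≤ n →
    Lf (n - v.length) (fun y => ∑ q, d.g q (v.length - 1) y) v ≤ 2) :
    (kill d δ).sys.Ok n := (kill d δ).ok hg

/-- every pair of the killed system is good -/
theorem kill_good (κ : K) {v : Node} (hv : v.length < n)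
    (hok : (kill d δ).sys.Ok n) (hact : d.act κ ≤ v.length ∨ (kill d δ).sys.α κ v = 0) :
    ‖(kill d δ).sys.z κ v‖ ≤ δ * (kill d δ).sys.α κ v ∧
      ∀ c : Bool, ‖(kill d δ).sys.z' κ (c :: v)‖ ≤ δ * (kill d δ).sys.α' κ (c :: v) := by
  have ha := hok.α0 κ v hv
  have ha' : ∀ c : Bool, 0 ≤ (kill d δ).sys.α' κ (c :: v) := fun c =>
    hok.α0' κ (c :: v) (by simp only [List.length_cons]; omega)
  have hm := hok.αm κ v hv
  have hz : (kill d δ).sys.z κ v = (((kill d δ).sys.α κ v : ℝ) : ℂ) * d.sys.B κ () v := by
    unfold ESys.z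
    simp only [univ_unique, sum_singleton]
    exact congrArg (· * _) (kill_A d δ κ v)
  have hz' : ∀ c : Bool, (kill d δ).sys.z' κ (c :: v) =
      (((kill d δ).sys.α' κ (c :: v) : ℝ) : ℂ) * d.sys.B' κ () (c :: v) := by
    intro c
    unfold ESys.z'
    simp only [univ_unique, sum_singleton]
    exact congrArg (· * _) (kill_A' d δ κ (c :: v))
  by_cases h0 : (kill d δ).sys.α κ v = 0
  · have h1 : ∀ c : Bool, (kill d δ).sys.α' κ (c :: v) = 0 := by
      intro c
      have h2 := ha' true
      have h3 := ha' false
      rw [h0] at hm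
      cases c <;> linarith
    refine ⟨?_, fun c => ?_⟩
    · rw [hz, h0]; simp
    · rw [hz', h1]; simp
  · have hne : ¬ ent d δ κ v := by
      intro h
      apply h0
      rw [kill_α d δ κ hv.le, if_pos h]
    have hact' := hact.resolve_right h0
    have hlow : low d δ κ v := by
      by_contra hl
      exact hne ⟨v, List.suffix_refl v, hact', hl⟩
    refine ⟨?_, fun c => ?_⟩
    · rw [hz, norm_mul, Complex.norm_real, Real.norm_of_nonneg ha, mul_comm]
      exact mul_le_mul_of_nonneg_right hlow.1 ha
    · rw [hz', norm_mul, Complex.norm_real, Real.norm_of_nonneg (ha' c), mul_comm]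
      exact mul_le_mul_of_nonneg_right (hlow.2 c) (ha' c)

theorem kill_α_before (κ : K) {v : Node} (h : v.length < d.act κ) :
    (kill d δ).sys.α κ v = 0 := by
  have h1 : (kill d δ).sys.α κ v = Lf (n - v.length) ((kill d δ).a κ v.length) v := rfl
  rw [h1]
  refine (Lf_congr _ (G := fun _ => 0) v fun x _ => (kill d δ).a_act κ _ x h).trans ?_
  exact Lf_const _ _ _

/-- telescoping of the removals of one letter at one leaf -/
theorem tele_le (f : ℕ → ℝ) (s : ℕ) (h0 : ∀ j, 0 ≤ f j) (h1 : ∀ j, j < s → f j = 0)
    (h2 : ∀ j, s ≤ j → f (j + 1) ≤ f j) (m : ℕ) :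
    ∑ j ∈ range m, max (f (j - 1) - f j) 0 ≤ f s := by
  have key : ∀ m, ∑ j ∈ range m, max (f (j - 1) - f j) 0 ≤
      if m ≤ s + 1 then 0 else f s - f (m - 1) := by
    intro m
    induction m with
    | zero => simp
    | succ m ih =>
      rw [sum_range_succ]
      by_cases hm : m + 1 ≤ s + 1
      · rw [if_pos hm]
        rw [if_pos (by omega)] at ih
        have : max (f (m - 1) - f m) 0 = 0 := by
          rw [max_eq_right]
          rcases Nat.eq_zero_or_pos m with h | h
          · subst h; simp
          · rw [h1 (m - 1) (by omega)]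
            have := h0 m
            linarith
        linarith
      · rw [if_neg hm]
        have e1 : m + 1 - 1 = m := rfl
        rw [e1]
        have e2 : m - 1 + 1 = m := by omega
        have h3 := h2 (m - 1) (by omega)
        rw [e2] at h3
        rw [max_eq_left (by linarith)]
        by_cases hm' : m ≤ s + 1
        · rw [if_pos hm'] at ih
          have : m - 1 = s := by omega
          rw [this]
          linarith
        · rw [if_neg hm'] at ih
          linarith
  refine (key m).trans ?_
  split_ifs
  · exact h0 s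
  · have := h0 (m - 1)
    linarith

open Classical in
/-- the removed mass of the killed system -/
theorem kill_removed (h1 : ∀ x : Node, x.length = n → ∑ κ, d.a κ (d.act κ) x ≤ 1) :
    S n (fun v => ∑ k, max ((kill d δ).sys.α' k v - (kill d δ).sys.α k v) 0) [] ≤ 1 := by
  refine (kill d δ).removed_le fun x hx => ?_
  rw [sum_comm]
  refine (sum_le_sum fun κ _ => ?_).trans (h1 x hx)
  refine (tele_le (fun j => (kill d δ).a κ j x) (d.act κ)
    (fun j => (kill d δ).a_nonneg κ j x) (fun j hj => (kill d δ).a_act κ j x hj)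
    (fun j hj => (kill d δ).a_anti κ j x hx hj) n).trans ?_
  change (if ent d δ κ (anc (d.act κ) x) then 0 else d.a κ (d.act κ) x) ≤ _
  split_ifs
  · exact d.a_nonneg _ _ _
  · exact le_rfl

theorem kill_tau {κ : K} {v : Node} :
    (kill d δ).sys.α κ v * ‖(kill d δ).sys.τ κ v‖ ^ 2 =
      (kill d δ).sys.α κ v * ‖d.sys.dB κ () v‖ ^ 2 := by
  by_cases h0 : (kill d δ).sys.α κ v = 0
  · rw [h0]; simp
  · have h1 : (kill d δ).sys.τ κ v = d.sys.dB κ () v := by
      unfold ESys.τ
      simp only [univ_unique, sum_singleton]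
      have h2 : (((kill d δ).sys.α κ v : ℝ) : ℂ) ≠ 0 := by exact_mod_cast h0
      have h3 : (kill d δ).sys.A κ default v = (((kill d δ).sys.α κ v : ℝ) : ℂ) := kill_A d δ κ v
      rw [h3, div_self h2, one_mul]
      rfl
    rw [h1]

theorem kill_dens2 (v : Node) :
    LE.H43.dens2 (kill d δ).sys v = 0 := by
  unfold LE.H43.dens2
  refine sum_eq_zero fun κ _ => sum_eq_zero fun q _ => ?_
  by_cases h0 : (kill d δ).sys.α κ v = 0
  · rw [h0, div_zero]
  · have h2 : (((kill d δ).sys.α κ v : ℝ) : ℂ) ≠ 0 := by exact_mod_cast h0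
    have h3 : LE.H43.rr (kill d δ).sys κ q v = 0 := by
      unfold LE.H43.rr
      have h4 : (kill d δ).sys.A κ q v = (((kill d δ).sys.α κ v : ℝ) : ℂ) := kill_A d δ κ v
      have h5 : (kill d δ).sys.dA κ q v = (((kill d δ).sys.dα κ v : ℝ) : ℂ) := by
        unfold ESys.dA ESys.dα
        have h6 : ∀ c : Bool, (kill d δ).sys.A' κ q (c :: v) =
          (((kill d δ).sys.α' κ (c :: v) : ℝ) : ℂ) := fun c => kill_A' d δ κ (c :: v)
        rw [h6, h6]
        push_cast
        ring
      rw [h4, h5, div_self h2, one_mul, sub_self]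
    rw [h3]
    simp

open Classical in
/-- **LOW**: the energy of the letters which have not entered -/
theorem low_energy {h : ℝ} (hδ : 0 ≤ δ) (hh : 0 ≤ h)
    (hg : ∀ v : Node, v.length ≤ n →
      Lf (n - v.length) (fun y => ∑ q, d.g q (v.length - 1) y) v ≤ 2)
    (h1 : ∀ x : Node, x.length = n → ∑ κ, d.a κ (d.act κ) x ≤ 1)
    (H1 : S n (fun v => ∑ k, (kill d δ).sys.dα k v ^ 2 / (kill d δ).sys.α k v) [] ≤ 2 * h) :
    S n (fun v => ∑ κ, if ent d δ κ v then 0 else d.sys.α κ v * ‖d.sys.dB κ () v‖ ^ 2) [] ≤
      16 * (2 * δ + δ ^ 2 * h) := by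
  have hok := kill_ok d δ hg
  have hl : ∀ w : Node, w.length < n + ([] : Node).length → w.length < n := by
    intro w hw; simpa using hw
  have e3n : 0 ≤ S n (LE.H43.dens3 (kill d δ).sys) [] := by
    refine S_nonneg n [] fun w hw => sum_nonneg fun k _ => sum_nonneg fun q _ => ?_
    exact div_nonneg (mul_nonneg (hok.α0 k w (hl w hw)) (by positivity)) (hok.G0 q w (hl w hw))
  have e2 : S n (LE.H43.dens2 (kill d δ).sys) [] ≤ 0 := by
    have : S n (LE.H43.dens2 (kill d δ).sys) [] ≤ S n (fun _ => 0 * (0 : ℝ)) [] :=
      S_mono n [] fun w hw => by rw [kill_dens2 d δ w]; simp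
    rw [S_smul, zero_mul] at this
    exact this
  have key := LE.H43.e4 (good := fun _ _ => True) (b := 0) (E2 := 0) hok hh hδ le_rfl le_rfl e3n H1
    (kill_removed d δ h1)
    (fun κ v hv _ => kill_good d δ κ hv hok (by
      rcases Nat.lt_or_ge v.length (d.act κ) with h | h
      · exact Or.inr (kill_α_before d δ κ h)
      · exact Or.inl h))
    (by
      have : S n (fun v => ∑ k, if True then (0:ℝ) else
          (kill d δ).sys.α k v * ‖(kill d δ).sys.τ k v‖ ^ 2) [] ≤ S n (fun _ => 0 * (0 : ℝ)) [] :=
        S_mono n [] fun w hw => by simp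
      rw [S_smul, zero_mul] at this
      exact this)
    e2 le_rfl
  have e4 : S n (fun v => ∑ κ, if ent d δ κ v then 0 else d.sys.α κ v * ‖d.sys.dB κ () v‖ ^ 2) []
      ≤ S n (fun v => ∑ k, if True then (kill d δ).sys.α k v * ‖(kill d δ).sys.τ k v‖ ^ 2
        else 0) [] := by
    refine S_mono n [] fun w hw => sum_le_sum fun κ _ => ?_
    rw [if_pos trivial, kill_tau, kill_α d δ κ (hl w hw).le]
    split_ifs
    · simp
    · exact le_rfl
  refine e4.trans (key.trans (le_of_eq ?_))
  simp
  ring

/-- energy of the killed system: floor at the start -/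
theorem kill_h {h : ℝ} (hh : 0 ≤ h)
    (hg : ∀ v : Node, v.length ≤ n →
      Lf (n - v.length) (fun y => ∑ q, d.g q (v.length - 1) y) v ≤ 2)
    (h1 : ∀ x : Node, x.length = n → ∑ κ, d.a κ (d.act κ) x ≤ 1)
    (hfl : ∀ κ (v : Node), v.length < n → v.length = d.act κ →
      d.sys.α κ v = 0 ∨ Real.exp (-h) ≤ d.sys.α κ v) :
    S n (fun v => ∑ k, (kill d δ).sys.dα k v ^ 2 / (kill d δ).sys.α k v) [] ≤
      2 * (2 * h + 1) := by
  have hok := kill_ok d δ hg
  have := LE.H219.esys_x_energy_act hok h 1 hh ?_ (kill_removed d δ h1)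
  · refine this.trans (le_of_eq ?_)
    ring
  intro κ v hv hz
  rcases Nat.lt_trichotomy v.length (d.act κ) with hlt | heq | hgt
  · exact Or.inl (kill_α_before d δ κ hlt)
  · rw [kill_α d δ κ hv.le]
    split_ifs
    · exact Or.inl rfl
    · exact hfl κ v hv heq
  · left
    rcases hz with hz | hz
    · subst hz
      simp at hgt
    · have h2 := (hok.α0 κ v hv)
      -- the mass only decreases after the activation
      have h3 : (kill d δ).sys.α κ v ≤ (kill d δ).sys.α' κ v := by
        change Lf (n - v.length) ((kill d δ).a κ v.length) v ≤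
          Lf (n - v.length) ((kill d δ).a κ (v.length - 1)) v
        refine Lf_mono _ _ fun x hx => ?_
        have h4 := (kill d δ).a_anti κ (v.length - 1) x (by omega)
          (by change d.act κ ≤ _; omega)
        have e1 : v.length - 1 + 1 = v.length := by omega
        rwa [e1] at h4
      rw [hz] at h3
      linarith

end sys

end Vale.Agent.P091.T.H454
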