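import Vale.Agent.P091.T.H454.Fam2
import Vale.Agent.P091.T.H316.Stage

/-! # P091, row E1-E (NBAD): `P_T8` on the relative list tree -/

set_option autoImplicit false

open Finset
open Vale.Agent.P091.Spec (av avC nd)
open Vale.Agent.P091.H413
open Vale.Agent.P091.T.H350 (ix nodeOf nodeOf_ix mem_nd)

noncomputable section

namespace Vale.Agent.P091.T.H454

/-- a class with a nonzero coefficient in the node is present (the floor of `ZData`) -/
theorem pres_of_ne {C1 D : ℝ} {n b : ℕ} {ι : Type} [Fintype ι] {d : ZData C1 D n b ι} {k : ι}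
    {j a i : ℕ} (hj : d.js k ≤ j) (hjn : j ≤ n) (hi : i ∈ nd n j a) (h : d.A k i ≠ 0) :
    Pres d k j a := by
  refine ⟨hj, fun j' h1 h2 => ?_⟩
  have h3 := d.floor k i h j' h1 (by omega)
  have h4 : Spec.anc n j' i = a / 2 ^ (j - j') := by
    rw [← mem_nd.1 hi]
    unfold Spec.anc
    rw [Nat.div_div_eq_div_mul, ← pow_add]
    congr 2
    omega
  rwa [h4] at h3

open Classical in
/-- the weights of the integer model -/
def wInt {ι : Type} (n j0 a0 : ℕ) (w : ι → Node → ℝ) (k : ι) (j a : ℕ) : ℝ :=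
  if j0 ≤ j ∧ j < n ∧ a / 2 ^ (j - j0) = a0 then
    w k (nodeOf (j - j0) (a - a0 * 2 ^ (j - j0))) else 0

theorem wInt_eq {ι : Type} (n j0 a0 : ℕ) (w : ι → Node → ℝ) (k : ι) {v : Node}
    (hv : v.length < n - j0) : wInt n j0 a0 w k (j0 + v.length) (T.ia a0 v) = w k v := by
  unfold wInt
  have e1 : j0 + v.length - j0 = v.length := by omega
  rw [e1, if_pos ⟨by omega, by omega, T.ia_root a0 v⟩]
  have e2 : T.ia a0 v - a0 * 2 ^ v.length = ix v := by
    unfold T.ia
    omega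
  rw [e2, nodeOf_ix]

/-- a node of the integer model below `(j0, a0)` is a node of the relative tree -/
theorem ia_nodeOf {j0 a0 j a : ℕ} (h : a / 2 ^ (j - j0) = a0) :
    T.ia a0 (nodeOf (j - j0) (a - a0 * 2 ^ (j - j0))) = a := by
  have hp : 0 < 2 ^ (j - j0) := by positivity
  have h1 : a0 * 2 ^ (j - j0) ≤ a := by
    rw [← h]
    exact Nat.div_mul_le_self _ _
  have h2 : a - a0 * 2 ^ (j - j0) < 2 ^ (j - j0) := by
    have h3 := Nat.lt_div_mul_add (a := a) hp
    rw [h] at h3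
    omega
  unfold T.ia
  rw [T.H350.length_nodeOf, T.H350.ix_nodeOf h2]
  omega

/-- **E1-E.** -/
theorem t8_rel (h8 : P_T8) (s0 C1 : ℝ) (hs0 : 0 < s0) (hC1 : 0 ≤ C1) : ∃ D0 : ℝ,
    ∀ (D : ℝ) (n : ℕ) (ι : Type) [Fintype ι] (d : ZData C1 D n (bb D) ι)
      (j0 a0 : ℕ) (Y : Finset ℕ) (W : ℕ → ℕ → Finset ℕ) (w : ι → Node → ℝ),
      D0 ≤ D → Fam d s0 j0 a0 Y W → (∀ k v, 0 ≤ w k v) → (∀ k v, w k v ≤ 1) →
      (∀ k (v : Node), v.length < n - j0 → w k v ≠ 0 → Pres d k (j0 + v.length) (T.ia a0 v)) →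
      (∀ v : Node, v.length < n - j0 → (W (j0 + v.length) (T.ia a0 v)).Nonempty →
        ∑ k, w k v * H316.cw d j0 a0 k v ≤ Real.exp (-(D / (ll D : ℝ) ^ 2))) →
      S (n - j0) (fun v => ∑ k, w k v * H316.cw d j0 a0 k v *
        ‖H316.dMZ d j0 a0 Y W k v‖ ^ 2) [] ≤ D / (4 * (ll D : ℝ) ^ 20) := by
  classical
  obtain ⟨D0, h⟩ := h8 s0 C1 hs0 hC1
  refine ⟨D0, ?_⟩
  intro D n ι _ d j0 a0 Y W w hD hF hw0 hw1 hp hm
  have hjn := hF.j0_le
  have hβ : 0 < av n j0 a0 (cut d.p Y) := (base0 hF).pos_β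
  have key := h D n ι d j0 a0 Y W (wInt n j0 a0 w) hD hF
    (fun k j a => by
      unfold wInt
      split_ifs
      · exact hw0 _ _
      · exact le_rfl)
    (fun k j a => by
      unfold wInt
      split_ifs
      · exact hw1 _ _
      · exact zero_le_one)
    (fun k j a hne => by
      by_cases hc : j0 ≤ j ∧ j < n ∧ a / 2 ^ (j - j0) = a0
      · unfold wInt at hne
        rw [if_pos hc] at hne
        have h1 := hp k _ (by rw [T.H350.length_nodeOf]; omega) hne
        rw [T.H350.length_nodeOf, ia_nodeOf hc.2.2] at h1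
        have e : j0 + (j - j0) = j := by omega
        rw [e] at h1
        exact h1
      · unfold wInt at hne
        rw [if_neg hc] at hne
        exact absurd rfl hne)
    (fun j a h1 h2 h3 h4 => by
      have e : j0 + (j - j0) = j := by omega
      have h5 := hm (nodeOf (j - j0) (a - a0 * 2 ^ (j - j0)))
        (by rw [T.H350.length_nodeOf]; omega)
        (by rw [T.H350.length_nodeOf, ia_nodeOf h3, e]; exact h4)
      refine le_trans (le_of_eq ?_) h5
      refine sum_congr rfl fun k _ => ?_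
      unfold H316.cw wInt
      rw [if_pos ⟨h1, h2, h3⟩, T.H350.length_nodeOf, ia_nodeOf h3, e])
  have hn : n = j0 + (n - j0) := by omega
  have h1 := sum_below_eq j0 a0 (n - j0) (fun j a =>
    ∑ k, wInt n j0 a0 w k j a * av n j a (d.a k) *
      ‖dZ n (bb D) (cut d.p (W j a)) (d.r k) j a‖ ^ 2)
  rw [← hn] at h1
  rw [h1] at key
  have h2 : S (n - j0) (fun v => ∑ k, wInt n j0 a0 w k (j0 + v.length) (T.ia a0 v) *
      av n (j0 + v.length) (T.ia a0 v) (d.a k) *
      ‖dZ n (bb D) (cut d.p (W (j0 + v.length) (T.ia a0 v))) (d.r k) (j0 + v.length)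
        (T.ia a0 v)‖ ^ 2) [] =
      (4 * av n j0 a0 (cut d.p Y) ^ 2) * S (n - j0) (fun v => ∑ k, w k v *
        H316.cw d j0 a0 k v * ‖H316.dMZ d j0 a0 Y W k v‖ ^ 2) [] := by
    rw [← S_smul]
    refine S_congr _ [] fun v hv => ?_
    simp only [List.length_nil, add_zero] at hv
    rw [mul_sum]
    refine sum_congr rfl fun k _ => ?_
    rw [wInt_eq n j0 a0 w k hv]
    unfold H316.cw H316.dMZ H316.bt
    have hb : 0 < 2 * av n j0 a0 (cut d.p Y) := by linarith
    rw [norm_div, Complex.norm_real, Real.norm_of_nonneg hb.le]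
    field_simp
    ring
  rw [h2] at key
  have hl : (0 : ℝ) < (ll D : ℝ) ^ 20 := by
    have : 0 < ll D := by unfold ll; omega
    positivity
  have hβ2 : 0 < 4 * av n j0 a0 (cut d.p Y) ^ 2 := by positivity
  rw [mul_comm] at key
  have h3 := (le_div_iff₀ hβ2).2 key
  refine h3.trans (le_of_eq ?_)
  field_simp

end Vale.Agent.P091.T.H454
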