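import Vale.Agent.P091.T.H454.NBad

/-! # P091, row E1-E in the form of `inst` (helper103): weights `β ≤ mass` -/

set_option autoImplicit false

open Finset
open Vale.Agent.P091.Spec (av avC nd)
open Vale.Agent.P091.H413

noncomputable section

namespace Vale.Agent.P091.T.H454

/-- **E1-E, `β` form.** -/
theorem t8_beta (h8 : P_T8) (s0 C1 : ℝ) (hs0 : 0 < s0) (hC1 : 0 ≤ C1) : ∃ D0 : ℝ,
    ∀ (D : ℝ) (n : ℕ) (ι : Type) [Fintype ι] (d : ZData C1 D n (bb D) ι)
      (j0 a0 : ℕ) (Y : Finset ℕ) (W : ℕ → ℕ → Finset ℕ) (β : ι → Node → ℝ),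
      D0 ≤ D → Fam d s0 j0 a0 Y W →
      (∀ k (v : Node), v.length < n - j0 → 0 ≤ β k v) →
      (∀ k (v : Node), v.length < n - j0 → β k v ≤ H316.cw d j0 a0 k v) →
      (∀ k (v : Node), v.length < n - j0 → β k v ≠ 0 → Pres d k (j0 + v.length) (T.ia a0 v)) →
      (∀ v : Node, v.length < n - j0 → (W (j0 + v.length) (T.ia a0 v)).Nonempty →
        ∑ k, β k v ≤ Real.exp (-(D / (ll D : ℝ) ^ 2))) →
      S (n - j0) (fun v => ∑ k, β k v * ‖H316.dMZ d j0 a0 Y W k v‖ ^ 2) []
        ≤ D / (4 * (ll D : ℝ) ^ 20) := by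
  classical
  obtain ⟨D0, h⟩ := t8_rel h8 s0 C1 hs0 hC1
  refine ⟨D0, ?_⟩
  intro D n ι _ d j0 a0 Y W β hD hF hβ0 hβ1 hp hm
  have hcw : ∀ k (v : Node), v.length < n - j0 →
      β k v / H316.cw d j0 a0 k v * H316.cw d j0 a0 k v = β k v := by
    intro k v hv
    by_cases hc : H316.cw d j0 a0 k v = 0
    · have h1 := hβ0 k v hv
      have h2 := hβ1 k v hv
      rw [hc] at h2
      rw [hc, mul_zero]
      linarith
    · exact div_mul_cancel₀ _ hc
  have key := h D n ι d j0 a0 Y W
    (fun k v => if v.length < n - j0 then β k v / H316.cw d j0 a0 k v else 0) hD hF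
    (fun k v => by
      split_ifs with hv
      · exact div_nonneg (hβ0 k v hv) ((hβ0 k v hv).trans (hβ1 k v hv))
      · exact le_rfl)
    (fun k v => by
      split_ifs with hv
      · exact div_le_one_of_le₀ (hβ1 k v hv) ((hβ0 k v hv).trans (hβ1 k v hv))
      · exact zero_le_one)
    (fun k v hv hne => by
      rw [if_pos hv] at hne
      exact hp k v hv fun h0 => hne (by rw [h0, zero_div]))
    (fun v hv hW => by
      refine le_trans (le_of_eq ?_) (hm v hv hW)
      refine sum_congr rfl fun k _ => ?_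
      rw [if_pos hv]
      exact hcw k v hv)
  refine le_trans (le_of_eq ?_) key
  refine S_congr _ [] fun v hv => ?_
  simp only [List.length_nil, add_zero] at hv
  refine sum_congr rfl fun k _ => ?_
  rw [if_pos hv, hcw k v hv]

end Vale.Agent.P091.T.H454
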